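import Vale.Agent.P315.H679.AccDefs2

/-!
# P315, Part A (short form): tight and not tight blocks, ends of blocks
-/

set_option autoImplicit false

namespace Vale.Agent.P315.H40

open Finset Vale.Agent.P315.Acc

variable {X : Type} [Fintype X] [Nonempty X]

section Sys

variable (S : Sys X)

theorem av_mono {j : ℕ} {f g : X → ℝ} (x : X) (h : ∀ y, S.q j y = S.q j x → f y ≤ g y) :
    S.av j f x ≤ S.av j g x := avg_mono S.hw x h

theorem nest' {i j : ℕ} (hij : i ≤ j) : ∀ x y, S.q i x = S.q i y → S.q j x = S.q j y := by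
  induction j, hij using Nat.le_induction with
  | base => intro x y h; exact h
  | succ j _ ih => intro x y h; exact S.nest j x y (ih x y h)

/-- The value of a node is at most the average over the nodes below it. -/
theorem e_le_av {i j : ℕ} (hij : i ≤ j) (hj : j ≤ S.n) (x : X) (b : ℕ) :
    S.e j x b ≤ S.av j (fun y => S.e i y b) x := by
  induction j, hij using Nat.le_induction generalizing x with
  | base =>
    have : S.av i (fun y => S.e i y b) x = S.e i x b :=
      avg_const S.hw x fun y hy => by rw [S.meas i y x hy]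
    rw [this]
  | succ j hij ih =>
    have h1 := S.gain j x b (by omega)
    refine h1.trans ?_
    have h2 : avg S.w S.q (j + 1) (fun y => S.e j y b) x ≤
        avg S.w S.q (j + 1) (avg S.w S.q j (fun y => S.e i y b)) x :=
      avg_mono S.hw x fun y _ => ih (by omega) y
    refine h2.trans (le_of_eq ?_)
    exact avg_avg S.hw (S.nest j) _ x

theorem top_le_n {s a : ℕ} (ha : a < S.na s) : (a + 1) * 2 ^ s ≤ S.n := by
  unfold Sys.na at ha
  calc (a + 1) * 2 ^ s ≤ S.n / 2 ^ s * 2 ^ s := Nat.mul_le_mul_right _ ha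
    _ ≤ S.n := Nat.div_mul_le_self _ _

theorem G_nonneg {s a : ℕ} (ha : a < S.na s) (x : X) (b : ℕ) : 0 ≤ S.G s a x b := by
  unfold Sys.G Sys.V
  have := e_le_av S (i := a * 2 ^ s) (j := (a + 1) * 2 ^ s)
    (Nat.mul_le_mul_right _ (Nat.le_succ a)) (top_le_n S ha) x b
  linarith

theorem nu_nonneg (j : ℕ) (x : X) {b b' : ℕ} (h : b ≤ b') : 0 ≤ S.nu j x b b' := by
  unfold Sys.nu
  have := S.anti j x h
  linarith

theorem b0_le_b1 (o s k : ℕ) : S.b0 o s k ≤ S.b1 o s k := by
  unfold Sys.b0 Sys.b1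
  have : k * S.D s ≤ (k + 1) * S.D s := Nat.mul_le_mul_right _ (Nat.le_succ k)
  omega

theorem b1_eq (o s k : ℕ) : S.b1 o s k = S.b0 o s k + S.D s := by
  unfold Sys.b0 Sys.b1; ring

theorem nuT_nonneg (o s a : ℕ) (x : X) (k : ℕ) : 0 ≤ S.nuT o s a x k :=
  nu_nonneg S _ x (b0_le_b1 S o s k)

theorem nuU_nonneg (o s a : ℕ) (x : X) (k : ℕ) : 0 ≤ S.nuU o s a x k :=
  nu_nonneg S _ x (b0_le_b1 S o s k)

/-- `rho` is the average mass of the units. -/
theorem rho_eq_av (o s a : ℕ) (x : X) (k : ℕ) :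
    S.rho o s a x k = S.av ((a + 1) * 2 ^ s) (fun y => S.nuU o s a y k) x := by
  unfold Sys.rho Sys.V Sys.nuU Sys.nu Sys.av
  rw [avg_sub]

theorem rho_eq (o s a : ℕ) (x : X) (k : ℕ) :
    S.rho o s a x k = S.nuT o s a x k + S.G s a x (S.b0 o s k) - S.G s a x (S.b1 o s k) := by
  unfold Sys.rho Sys.nuT Sys.G Sys.nu
  ring

end Sys

section Mach

variable {S : Sys X} (R : Mach S)

theorem m_le {s a : ℕ} (hs : s ≤ S.smax) (ha : a < S.na s) (o : ℕ) (x : X) (k : ℕ) :
    R.m o s a x k ≤ S.nuT o s a x k + S.G s a x (S.b0 o s k) + 2 * R.tau s := by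
  unfold Mach.m Sys.nuT Sys.nu Sys.G
  have h1 := R.om_le s a x (S.b0 o s k) hs ha
  have h2 := R.le_om s a x (S.b1 o s k) hs ha
  linarith

theorem nuT_le {s a : ℕ} (hs : s ≤ S.smax) (ha : a < S.na s) (o : ℕ) (x : X) (k : ℕ) :
    S.nuT o s a x k ≤ R.m o s a x k + S.G s a x (S.b1 o s k) + 2 * R.tau s := by
  unfold Mach.m Sys.nuT Sys.nu Sys.G
  have h1 := R.le_om s a x (S.b0 o s k) hs ha
  have h2 := R.om_le s a x (S.b1 o s k) hs ha
  linarith

theorem rho_le {s a : ℕ} (hs : s ≤ S.smax) (ha : a < S.na s) (o : ℕ) (x : X) (k : ℕ) :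
    S.rho o s a x k ≤ R.m o s a x k + S.G s a x (S.b0 o s k) + 2 * R.tau s := by
  unfold Mach.m Sys.rho Sys.G
  have h1 := R.le_om s a x (S.b0 o s k) hs ha
  have h2 := R.om_le s a x (S.b1 o s k) hs ha
  linarith

theorem m_le_rho {s a : ℕ} (hs : s ≤ S.smax) (ha : a < S.na s) (o : ℕ) (x : X) (k : ℕ) :
    R.m o s a x k ≤ S.rho o s a x k + S.G s a x (S.b1 o s k) + 2 * R.tau s := by
  unfold Mach.m Sys.rho Sys.G
  have h1 := R.om_le s a x (S.b0 o s k) hs ha
  have h2 := R.le_om s a x (S.b1 o s k) hs ha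
  linarith

theorem rho_le_nuT {s a : ℕ} (ha : a < S.na s) (o : ℕ) (x : X) (k : ℕ) :
    S.rho o s a x k ≤ S.nuT o s a x k + S.G s a x (S.b0 o s k) := by
  have h := rho_eq S o s a x k
  have h1 := G_nonneg S ha x (S.b1 o s k)
  linarith

theorem nuT_le_rho {s a : ℕ} (ha : a < S.na s) (o : ℕ) (x : X) (k : ℕ) :
    S.nuT o s a x k ≤ S.rho o s a x k + S.G s a x (S.b1 o s k) := by
  have h := rho_eq S o s a x k
  have h1 := G_nonneg S ha x (S.b0 o s k)
  linarith

/-- The gains of the top at the two ends of the block. -/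
noncomputable def GG (S : Sys X) (o s a : ℕ) (x : X) (k : ℕ) : ℝ :=
  S.G s a x (S.b0 o s k) + S.G s a x (S.b1 o s k)

theorem GG_nonneg {s a : ℕ} (ha : a < S.na s) (o : ℕ) (x : X) (k : ℕ) : 0 ≤ GG S o s a x k :=
  add_nonneg (G_nonneg S ha x _) (G_nonneg S ha x _)

/-- A block is tight: the gains at its ends and the precision are small against its mass. -/
def Tight (o s a : ℕ) (x : X) (k : ℕ) : Prop :=
  GG S o s a x k + 2 * R.tau s ≤ S.nuT o s a x k / 4

theorem tight_le_m {s a : ℕ} (hs : s ≤ S.smax) (ha : a < S.na s) {o : ℕ} {x : X} {k : ℕ}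
    (h : Tight R o s a x k) : 3 / 4 * S.nuT o s a x k ≤ R.m o s a x k := by
  have h1 := nuT_le R hs ha o x k
  have h2 := G_nonneg S ha x (S.b0 o s k)
  unfold Tight GG at h
  linarith

theorem tight_m_le {s a : ℕ} (hs : s ≤ S.smax) (ha : a < S.na s) {o : ℕ} {x : X} {k : ℕ}
    (h : Tight R o s a x k) : R.m o s a x k ≤ 5 / 4 * S.nuT o s a x k := by
  have h1 := m_le R hs ha o x k
  have h2 := G_nonneg S ha x (S.b1 o s k)
  unfold Tight GG at h
  linarith

theorem tight_rho_le {s a : ℕ} (ha : a < S.na s) {o : ℕ} {x : X} {k : ℕ}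
    (h : Tight R o s a x k) :
    S.rho o s a x k + S.G s a x (S.b1 o s k) ≤ 5 / 4 * S.nuT o s a x k := by
  have h1 := rho_eq S o s a x k
  have h2 := R.tau_nonneg s
  have h3 := G_nonneg S ha x (S.b1 o s k)
  unfold Tight GG at h
  linarith

/-- (STEP 5, one block) -/
theorem not_tight_nuT {s a : ℕ} (ha : a < S.na s) {o : ℕ} {x : X} {k : ℕ} {th : ℝ}
    (hth : th ≤ S.nuT o s a x k) (htau : 1000 * R.tau s ≤ th)
    (h : ¬ Tight R o s a x k) : S.nuT o s a x k ≤ 5 * GG S o s a x k := by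
  have h3 := GG_nonneg (S := S) ha o x k
  unfold Tight at h
  push Not at h
  linarith

theorem not_tight_rho {s a : ℕ} (ha : a < S.na s) {o : ℕ} {x : X} {k : ℕ} {th : ℝ}
    (hth : th ≤ S.nuT o s a x k) (htau : 1000 * R.tau s ≤ th)
    (h : ¬ Tight R o s a x k) :
    S.rho o s a x k + S.G s a x (S.b1 o s k) ≤ 6 * GG S o s a x k := by
  have h1 := not_tight_nuT R ha hth htau h
  have h2 := rho_eq S o s a x k
  have h3 := G_nonneg S ha x (S.b1 o s k)
  unfold GG at *
  linarith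

/-- (STEP 7, one block) -/
theorem not_tight_m {s a : ℕ} (hs : s ≤ S.smax) (ha : a < S.na s) {o : ℕ} {x : X} {k : ℕ} {th : ℝ}
    (hth : 3 / 8 * th ≤ R.m o s a x k) (htau : 1000 * R.tau s ≤ th)
    (h : ¬ Tight R o s a x k) : R.m o s a x k ≤ 6 * GG S o s a x k := by
  have h1 := m_le R hs ha o x k
  have h2 := G_nonneg S ha x (S.b0 o s k)
  have h3 := G_nonneg S ha x (S.b1 o s k)
  unfold Tight at h
  push Not at h
  unfold GG at *
  linarith

/-- The class of a block of given size. -/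
theorem exists_cls {o s a : ℕ} {x : X} {k : ℕ} (h0 : 0 < R.m o s a x k)
    (h1 : R.m o s a x k < 1) : ∃ l, R.cls o s a l x k := by
  obtain ⟨l, hl1, hl2⟩ := exists_nat_pow_near_of_lt_one h0 h1.le (by norm_num : (0 : ℝ) < 1 / 2)
    (by norm_num : (1 / 2 : ℝ) < 1)
  rcases hl2.lt_or_eq with h | h
  · exact ⟨l, hl1.le, h⟩
  · cases l with
    | zero => rw [pow_zero] at h; linarith
    | succ l =>
      refine ⟨l, h.ge, ?_⟩
      rw [h]
      exact pow_lt_pow_right_of_lt_one₀ (by norm_num) (by norm_num) (Nat.lt_succ_self l)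

theorem tight_iff {o s a : ℕ} {x : X} {k : ℕ} : Tight R o s a x k ↔ R.tight o s a x k := Iff.rfl

/-- A tight block with mass between the thresholds is active. -/
theorem actv_of {th th' : ℕ → ℝ} {o s a : ℕ} (hs : s ≤ S.smax) (ha : a < S.na s)
    (h3 : 0 < th s) (h4 : 5 / 4 * th' s < 1) {x : X} {k : ℕ}
    (hx : th s ≤ S.nuT o s a x k) (hx' : S.nuT o s a x k ≤ th' s) (h : Tight R o s a x k) :
    R.actv th th' o s a x k := by
  have h5 := tight_le_m R hs ha h
  have h6 := tight_m_le R hs ha h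
  obtain ⟨l, hl⟩ := exists_cls R (o := o) (s := s) (a := a) (x := x) (k := k)
    (by linarith) (by linarith)
  exact ⟨l, ⟨by linarith [hl.2], by linarith [hl.1]⟩, hl⟩

theorem actv_le_m {th th' : ℕ → ℝ} {o s a : ℕ} {x : X} {k : ℕ} (h : R.actv th th' o s a x k) :
    3 / 8 * th s ≤ R.m o s a x k := by
  obtain ⟨l, hl, hc⟩ := h
  have h1 := hl.1
  have h2 := hc.1
  rw [pow_succ] at h2
  linarith

theorem actv_m_le {th th' : ℕ → ℝ} {o s a : ℕ} {x : X} {k : ℕ} (h : R.actv th th' o s a x k) :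
    R.m o s a x k ≤ 5 / 2 * th' s := by
  obtain ⟨l, hl, hc⟩ := h
  have h1 := hl.2
  have h2 := hc.2
  rw [pow_succ] at h1
  linarith

/-- Step 5. -/
theorem step5 {th th' : ℕ → ℝ} {o s a : ℕ} (hs : s ≤ S.smax) (ha : a < S.na s)
    (h1 : 1000 * R.tau s ≤ th s) (h3 : 0 < th s) (h4 : 5 / 4 * th' s < 1) (x : X) (k : ℕ)
    (hx : th s ≤ S.nuT o s a x k) (hx' : S.nuT o s a x k ≤ th' s) :
    S.rho o s a x k ≤ 6 * (S.G s a x (S.b0 o s k) + S.G s a x (S.b1 o s k)) +
      ind (R.inA th th' o s a x k) * S.rho o s a x k +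
      2 * (ind (R.unst th th' o s a x k) * S.nuT o s a x k) := by
  have g0 := G_nonneg S ha x (S.b0 o s k)
  have g1 := G_nonneg S ha x (S.b1 o s k)
  have hrho : 0 ≤ S.rho o s a x k := by
    have := nuT_le_rho (S := S) ha o x k
    have h := rho_eq S o s a x k
    have hm := rho_eq_av S o s a x k
    rw [hm]
    exact avg_nonneg S.hw x fun y _ => nuU_nonneg S o s a y k
  have hnu := nuT_nonneg S o s a x k
  have i1 := ind_nonneg (R.inA th th' o s a x k)
  have i2 := ind_nonneg (R.unst th th' o s a x k)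
  by_cases ht : Tight R o s a x k
  · have hact := actv_of R hs ha h3 h4 hx hx' ht
    by_cases hu : R.ups th' o s a x k
    · have hA : R.inA th th' o s a x k := ⟨hact, ht, hu⟩
      rw [ind_true hA]
      have := mul_nonneg i2 hnu
      linarith
    · have hU : R.unst th th' o s a x k := ⟨hact, ht, hu⟩
      rw [ind_true hU]
      have h5 := tight_rho_le R ha ht
      have := mul_nonneg i1 hrho
      linarith
  · have h5 := not_tight_rho R ha hx h1 ht
    have := mul_nonneg i2 hnu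
    have := mul_nonneg i1 hrho
    unfold GG at h5
    linarith

/-- Step 7. -/
theorem step7 {th th' : ℕ → ℝ} {o s a : ℕ} (hs : s ≤ S.smax) (ha : a < S.na s)
    (h1 : 1000 * R.tau s ≤ th s) (_h3 : 0 < th s) (x : X) (k : ℕ)
    (hact : R.actv th th' o s a x k) (hA : ¬ R.inA th th' o s a x k) :
    R.m o s a x k ≤ 6 * (S.G s a x (S.b0 o s k) + S.G s a x (S.b1 o s k)) +
      2 * (ind (R.unst th th' o s a x k) * S.nuT o s a x k) := by
  have g0 := G_nonneg S ha x (S.b0 o s k)
  have g1 := G_nonneg S ha x (S.b1 o s k)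
  have hnu := nuT_nonneg S o s a x k
  have i2 := ind_nonneg (R.unst th th' o s a x k)
  by_cases ht : Tight R o s a x k
  · have hu : ¬ R.ups th' o s a x k := fun hu => hA ⟨hact, ht, hu⟩
    have hU : R.unst th th' o s a x k := ⟨hact, ht, hu⟩
    rw [ind_true hU]
    have h5 := tight_m_le R hs ha ht
    linarith
  · have h5 := not_tight_m R hs ha (actv_le_m R hact) h1 ht
    have := mul_nonneg i2 hnu
    unfold GG at h5
    linarith

end Mach

end Vale.Agent.P315.H40
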